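import Mathlib
import Vale.Agent.H25.StepLlogL

/-!
# P091: almost everywhere convergence in `L log L` for step functions with tall narrow steps

Let `f = ∑ a j 1_{I_j}` be a countable step function on the circle `ℝ / 2πℤ` (with normalised
Haar measure), over pairwise disjoint closed arcs `I_j` of half-length `r j` (normalised
measure `r j / π`), with `‖a j‖ ≥ (r j / π) ^ (-ε)` for a fixed `ε > 0`. If `f` is in `L log L`,
then the Carleson maximal function of `f` is integrable, with an explicit bound by the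
`L log L` integral of `f`, and the symmetric partial Fourier sums of `f` converge to `f`
almost everywhere.
-/

namespace Vale.Agent.Results.P091.A_StepLlogL

open MeasureTheory Real

theorem result [Fact ((0 : ℝ) < 2 * π)]
    {ι : Type*} [Countable ι]
    (c : ι → AddCircle (2 * π)) (r : ι → ℝ) (a : ι → ℂ) (ε : ℝ) (hε : 0 < ε)
    (hr : ∀ j, 0 < r j ∧ r j < π)
    (hdisj : Pairwise fun i j =>
      Disjoint (Metric.closedBall (c i) (r i)) (Metric.closedBall (c j) (r j)))
    (htall : ∀ j, (r j / π) ^ (-ε) ≤ ‖a j‖)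
    (f : AddCircle (2 * π) → ℂ)
    (hf : ∀ x, f x = ∑' j, (Metric.closedBall (c j) (r j)).indicator (fun _ => a j) x)
    (hLlogL : Integrable (fun x => ‖f x‖ * Real.log (2 + ‖f x‖)) AddCircle.haarAddCircle) :
    (∫⁻ x : AddCircle (2 * π),
        ⨆ N : ℕ, ‖∑ k ∈ Finset.Icc (-(N : ℤ)) N, fourierCoeff f k * fourier k x‖ₑ
        ∂AddCircle.haarAddCircle ≤
      ENNReal.ofReal (12 * (1 + 1 / ε) *
        ∫ x, ‖f x‖ * Real.log (2 + ‖f x‖) ∂AddCircle.haarAddCircle)) ∧
    ∀ᵐ x ∂AddCircle.haarAddCircle,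
      Filter.Tendsto
        (fun N : ℕ => ∑ k ∈ Finset.Icc (-(N : ℤ)) N, fourierCoeff f k * fourier k x)
        Filter.atTop (nhds (f x)) :=
  Vale.Agent.H25.step_LlogL c r a ε hε hr hdisj htall f hf hLlogL

end Vale.Agent.Results.P091.A_StepLlogL
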