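import Mathlib
import Vale.Agent.H25.StepMain

/-!
# P091: a convergence class built from arc indicators

Let `f = ∑ a j 1_{I_j}` be a countable combination of indicators of arbitrary closed arcs `I_j`
of the circle `ℝ / 2πℤ`, of half-length `r j` and normalised measure `μ_j = r j / π`, such that
`W = ∑ ‖a j‖ μ_j log (1 + 1 / μ_j)` is finite. Then the Carleson maximal function of `f` has
integral at most `12 W`, and the symmetric partial Fourier sums of `f` converge to `f` almost
everywhere.
-/

namespace Vale.Agent.Results.P091.B_ArcAtoms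

open MeasureTheory Real

theorem result [Fact ((0 : ℝ) < 2 * π)]
    {ι : Type*} [Countable ι]
    (c : ι → AddCircle (2 * π)) (r : ι → ℝ) (a : ι → ℂ)
    (hr : ∀ j, 0 < r j ∧ r j < π)
    (hw : Summable fun j => ‖a j‖ * (r j / π * Real.log (1 + π / r j)))
    (f : AddCircle (2 * π) → ℂ)
    (hf : ∀ x, f x = ∑' j, a j * (Metric.closedBall (c j) (r j)).indicator (fun _ => (1 : ℂ)) x) :
    (∫⁻ x : AddCircle (2 * π),
        ⨆ N : ℕ, ‖∑ k ∈ Finset.Icc (-(N : ℤ)) N, fourierCoeff f k * fourier k x‖ₑ
        ∂AddCircle.haarAddCircle ≤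
      ENNReal.ofReal (12 * ∑' j, ‖a j‖ * (r j / π * Real.log (1 + π / r j)))) ∧
    ∀ᵐ x ∂AddCircle.haarAddCircle,
      Filter.Tendsto
        (fun N : ℕ => ∑ k ∈ Finset.Icc (-(N : ℤ)) N, fourierCoeff f k * fourier k x)
        Filter.atTop (nhds (f x)) := by
  have hfs : f = Vale.Agent.H25.stepFun c r a := by
    funext x
    rw [hf x]
    rfl
  rw [hfs]
  exact Vale.Agent.H25.stepFun_main c r a hr hw

end Vale.Agent.Results.P091.B_ArcAtoms
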