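import Mathlib
import Vale.Agent.Results.P091.A_StepLlogL
import Vale.Agent.Results.P091.B_ArcAtoms

/-!
# P091: the two convergence classes of this folder in one statement

1. (`A_StepLlogL`, verbatim.) Let `f = ∑ a j 1_{I_j}` be a countable step function on the circle
   `ℝ / 2πℤ` (normalised Haar measure) over pairwise disjoint closed arcs `I_j` of half-length
   `r j`, with `‖a j‖ ≥ (r j / π) ^ (-ε)` for a fixed `ε > 0`. If `f` is in `L log L`, then the
   Carleson maximal function of `f` has integral at most `12 (1 + 1/ε)` times the `L log L`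
   integral of `f`, and the symmetric partial Fourier sums of `f` converge to `f` almost
   everywhere.
2. (`B_ArcAtoms`, verbatim.) Let `f = ∑ a j 1_{I_j}` over arbitrary closed arcs with
   `W = ∑ ‖a j‖ μ_j log (1 + 1 / μ_j)` finite, `μ_j = r j / π`. Then the Carleson maximal
   function of `f` has integral at most `12 W`, and the symmetric partial Fourier sums of `f`
   converge to `f` almost everywhere.
-/

namespace Vale.Agent.Results.P091.C_StepAndArcAtoms

open MeasureTheory Real

theorem result [Fact ((0 : ℝ) < 2 * π)] :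
    (∀ {ι : Type*} [Countable ι]
      (c : ι → AddCircle (2 * π)) (r : ι → ℝ) (a : ι → ℂ) (ε : ℝ), 0 < ε →
      (∀ j, 0 < r j ∧ r j < π) →
      (Pairwise fun i j =>
        Disjoint (Metric.closedBall (c i) (r i)) (Metric.closedBall (c j) (r j))) →
      (∀ j, (r j / π) ^ (-ε) ≤ ‖a j‖) →
      ∀ f : AddCircle (2 * π) → ℂ,
      (∀ x, f x = ∑' j, (Metric.closedBall (c j) (r j)).indicator (fun _ => a j) x) →
      Integrable (fun x => ‖f x‖ * Real.log (2 + ‖f x‖)) AddCircle.haarAddCircle →
      (∫⁻ x : AddCircle (2 * π),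
          ⨆ N : ℕ, ‖∑ k ∈ Finset.Icc (-(N : ℤ)) N, fourierCoeff f k * fourier k x‖ₑ
          ∂AddCircle.haarAddCircle ≤
        ENNReal.ofReal (12 * (1 + 1 / ε) *
          ∫ x, ‖f x‖ * Real.log (2 + ‖f x‖) ∂AddCircle.haarAddCircle)) ∧
      ∀ᵐ x ∂AddCircle.haarAddCircle,
        Filter.Tendsto
          (fun N : ℕ => ∑ k ∈ Finset.Icc (-(N : ℤ)) N, fourierCoeff f k * fourier k x)
          Filter.atTop (nhds (f x))) ∧
    (∀ {ι : Type*} [Countable ι]
      (c : ι → AddCircle (2 * π)) (r : ι → ℝ) (a : ι → ℂ),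
      (∀ j, 0 < r j ∧ r j < π) →
      (Summable fun j => ‖a j‖ * (r j / π * Real.log (1 + π / r j))) →
      ∀ f : AddCircle (2 * π) → ℂ,
      (∀ x, f x =
        ∑' j, a j * (Metric.closedBall (c j) (r j)).indicator (fun _ => (1 : ℂ)) x) →
      (∫⁻ x : AddCircle (2 * π),
          ⨆ N : ℕ, ‖∑ k ∈ Finset.Icc (-(N : ℤ)) N, fourierCoeff f k * fourier k x‖ₑ
          ∂AddCircle.haarAddCircle ≤
        ENNReal.ofReal (12 * ∑' j, ‖a j‖ * (r j / π * Real.log (1 + π / r j)))) ∧
      ∀ᵐ x ∂AddCircle.haarAddCircle,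
        Filter.Tendsto
          (fun N : ℕ => ∑ k ∈ Finset.Icc (-(N : ℤ)) N, fourierCoeff f k * fourier k x)
          Filter.atTop (nhds (f x))) := by
  refine ⟨?_, ?_⟩
  · intro ι _ c r a ε hε hr hdisj htall f hf hLlogL
    exact Vale.Agent.Results.P091.A_StepLlogL.result c r a ε hε hr hdisj htall f hf hLlogL
  · intro ι _ c r a hr hw f hf
    exact Vale.Agent.Results.P091.B_ArcAtoms.result c r a hr hw f hf

end Vale.Agent.Results.P091.C_StepAndArcAtoms
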